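import Mathlib

namespace Vale.Agent.P216.R2.H419

theorem jac_int : IsJacobsonRing ℤ := by
  rw [isJacobsonRing_iff_prime_eq]
  intro P hP
  by_cases h0 : P = ⊥
  · subst h0
    rw [eq_bot_iff]
    intro n hn
    by_contra hne
    have hn0 : n ≠ 0 := fun h => hne (by simp [h])
    obtain ⟨p, hp1, hp⟩ := Nat.exists_infinite_primes (n.natAbs + 1)
    have hpm : (Ideal.span {(p : ℤ)}).IsMaximal :=
      PrincipalIdealRing.isMaximal_of_irreducible (Nat.prime_iff_prime_int.1 hp).irreducible
    have h1 : n ∈ Ideal.span {(p : ℤ)} := by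
      rw [Ideal.jacobson, Submodule.mem_sInf] at hn
      exact hn _ ⟨bot_le, hpm⟩
    rw [Ideal.mem_span_singleton] at h1
    have h2 := Int.natAbs_dvd_natAbs.2 h1
    have h3 := Nat.le_of_dvd (Int.natAbs_pos.2 hn0) h2
    simp at h3
    omega
  · have := hP.isMaximal h0
    exact Ideal.jacobson_eq_self_of_isMaximal

/-- a field which is a finitely generated ring is finite -/
theorem finite_field (K : Type*) [Field K] [Algebra.FiniteType ℤ K] : Finite K := by
  have := jac_int
  have : Module.Finite ℤ K := finite_of_finite_type_of_isJacobsonRing ℤ K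
  by_cases hc : ∃ p : ℕ, p.Prime ∧ CharP K p
  · obtain ⟨p, hp, hcp⟩ := hc
    have : Fact p.Prime := ⟨hp⟩
    let _ : Algebra (ZMod p) K := ZMod.algebra K p
    have : Module.Finite (ZMod p) K := Module.Finite.of_restrictScalars_finite ℤ (ZMod p) K
    exact Module.finite_of_finite (ZMod p)
  · exfalso
    obtain ⟨q, hq⟩ := CharP.exists K
    rcases CharP.char_is_prime_or_zero K q with h | h
    · exact hc ⟨q, h, hq⟩
    · subst h
      have : CharZero K := CharP.charP_to_charZero K
      have hinj : Function.Injective (algebraMap ℤ K) := by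
        intro a b hab
        simpa using hab
      have := isField_of_isIntegral_of_isField hinj (Field.toIsField K)
      exact Int.not_isField this


theorem exists_sub (A V : Type*) [CommRing A] [Algebra.FiniteType ℤ A] [AddCommGroup V]
    [Module A V] [Module.Finite A V] [Nontrivial V] :
    ∃ W : Submodule A V, W ≠ ⊤ ∧ Finite (V ⧸ W) := by
  obtain ⟨W, hW, -⟩ := (IsCoatomic.eq_top_or_exists_le_coatom (⊥ : Submodule A V)).resolve_left
    bot_ne_top
  refine ⟨W, hW.1, ?_⟩
  have hs : IsSimpleModule A (V ⧸ W) := isSimpleModule_iff_isCoatom.2 hW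
  obtain ⟨m, hm, ⟨e⟩⟩ := isSimpleModule_iff_quot_maximal.1 hs
  let _ : Field (A ⧸ m) := Ideal.Quotient.field m
  have : Algebra.FiniteType ℤ (A ⧸ m) :=
    Algebra.FiniteType.of_surjective (Ideal.Quotient.mk m).toIntAlgHom
      Ideal.Quotient.mk_surjective
  have : Finite (A ⧸ m) := @finite_field (A ⧸ m) _ this
  exact Finite.of_equiv _ e.toEquiv.symm

/-- A nontrivial abelian group generated by finitely many orbits of an automorphism has a proper
subgroup of finite index which is stable under the automorphism and its inverse. -/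
theorem exists_stable {V : Type*} [AddCommGroup V] [Nontrivial V] (T : V ≃+ V) (S : Finset V)
    (hS : ∀ W : AddSubgroup V, (∀ s ∈ S, s ∈ W) → (∀ v ∈ W, T v ∈ W) →
      (∀ v ∈ W, T.symm v ∈ W) → W = ⊤) :
    ∃ W : AddSubgroup V, W ≠ ⊤ ∧ (∀ v, T v ∈ W ↔ v ∈ W) ∧ Finite (V ⧸ W) := by
  classical
  let t : Module.End ℤ V := T.toAddMonoidHom.toIntLinearMap
  let t' : Module.End ℤ V := T.symm.toAddMonoidHom.toIntLinearMap
  have h1 : t * t' = 1 := by
    ext v
    exact T.apply_symm_apply v
  have h2 : t' * t = 1 := by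
    ext v
    exact T.symm_apply_apply v
  have hcomm : ∀ a ∈ ({t, t'} : Set (Module.End ℤ V)), ∀ b ∈ ({t, t'} : Set (Module.End ℤ V)),
      a * b = b * a := by
    rintro a (rfl | rfl) b (rfl | rfl)
    · rfl
    · rw [h1, h2]
    · rw [h1, h2]
    · rfl
  have hmul := Algebra.isMulCommutative_adjoin ℤ hcomm
  let A := Algebra.adjoin ℤ ({t, t'} : Set (Module.End ℤ V))
  let _ : CommRing A := { (inferInstance : Ring A) with
    mul_comm := fun a b => hmul.is_comm.comm a b }
  have hft : Algebra.FiniteType ℤ A :=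
    (Subalgebra.fg_iff_finiteType _).1 ⟨{t, t'}, by simp [A]⟩
  have hfin : Module.Finite A V := by
    refine ⟨⟨S, ?_⟩⟩
    have h3 : (Submodule.span A (S : Set V)).toAddSubgroup = ⊤ := by
      refine hS _ (fun s hs => Submodule.subset_span hs) (fun v hv => ?_) (fun v hv => ?_)
      · exact (Submodule.span A (S : Set V)).smul_mem
          ⟨t, Algebra.subset_adjoin (by simp)⟩ hv
      · exact (Submodule.span A (S : Set V)).smul_mem
          ⟨t', Algebra.subset_adjoin (by simp)⟩ hv
    rw [eq_top_iff]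
    intro v _
    have : v ∈ (Submodule.span A (S : Set V)).toAddSubgroup := by rw [h3]; trivial
    exact this
  obtain ⟨W, hW, hf⟩ := exists_sub A V
  refine ⟨W.toAddSubgroup, ?_, fun v => ⟨fun h => ?_, fun h => ?_⟩, ?_⟩
  · intro h
    apply hW
    rw [eq_top_iff]
    intro v _
    have : v ∈ W.toAddSubgroup := by rw [h]; trivial
    exact this
  · have := W.smul_mem (⟨t', Algebra.subset_adjoin (by simp)⟩ : A) h
    have h5 : (⟨t', Algebra.subset_adjoin (by simp)⟩ : A) • T v = v := T.symm_apply_apply v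
    rwa [h5] at this
  · exact W.smul_mem (⟨t, Algebra.subset_adjoin (by simp)⟩ : A) h
  · exact hf


section group

variable {G : Type*} [Group G] (φ : G →* Multiplicative ℤ) (t : G)

/-- the subgroup `B t^ℤ` -/
def lift (B : Subgroup G)
    (hB : ∀ x ∈ B, ∀ m : ℤ, t ^ m * x * t ^ (-m) ∈ B) : Subgroup G where
  carrier := {x | x * t ^ (-(φ x).toAdd) ∈ B}
  one_mem' := by simp [B.one_mem]
  mul_mem' := by
    intro x y hx hy
    simp only [Set.mem_ofPred_eq] at hx hy ⊢
    have h1 := B.mul_mem hx (hB _ hy (φ x).toAdd)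
    have h2 : x * t ^ (-(φ x).toAdd) * (t ^ (φ x).toAdd * (y * t ^ (-(φ y).toAdd)) *
        t ^ (-(φ x).toAdd)) = x * y * t ^ (-(φ (x * y)).toAdd) := by
      rw [map_mul, toAdd_mul, neg_add_rev, zpow_add]
      group
    rwa [h2] at h1
  inv_mem' := by
    intro x hx
    simp only [Set.mem_ofPred_eq] at hx ⊢
    have h1 := hB _ (B.inv_mem hx) (-(φ x).toAdd)
    have h2 : t ^ (-(φ x).toAdd) * (x * t ^ (-(φ x).toAdd))⁻¹ * t ^ (-(-(φ x).toAdd)) =
        x⁻¹ * t ^ (-(φ x⁻¹).toAdd) := by
      rw [map_inv, toAdd_inv]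
      group
    rwa [h2] at h1

end group

/-- If `G` is finitely generated and the kernel of a surjection `G → ℤ` lies in all subgroups of
finite index, then this kernel is perfect. -/
theorem ker_perfect {G : Type*} [Group G] [hG : Group.FG G] (φ : G →* Multiplicative ℤ)
    (hφ : Function.Surjective φ) (h : ∀ L : Subgroup G, L.FiniteIndex → φ.ker ≤ L) :
    commutator φ.ker = ⊤ := by
  classical
  by_contra hcon
  obtain ⟨t, ht⟩ := hφ (Multiplicative.ofAdd 1)
  let R := φ.ker
  let c : MulAut R := MulAut.conjNormal t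
  let T : Additive (Abelianization R) ≃+ Additive (Abelianization R) :=
    MulEquiv.toAdditive (MulEquiv.abelianizationCongr c)
  have hT : ∀ r : R, T (Additive.ofMul (Abelianization.of r)) =
      Additive.ofMul (Abelianization.of (c r)) := fun r => rfl
  have hT' : ∀ r : R, T.symm (Additive.ofMul (Abelianization.of r)) =
      Additive.ofMul (Abelianization.of (c.symm r)) := fun r => rfl
  have hnt : Nontrivial (Additive (Abelianization R)) := by
    by_contra hs
    rw [not_nontrivial_iff_subsingleton] at hs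
    apply hcon
    rw [eq_top_iff]
    intro x _
    have : (Abelianization.of x : Abelianization R) = 1 :=
      (Additive.ofMul.injective (Subsingleton.elim (Additive.ofMul (Abelianization.of x))
        (Additive.ofMul 1)))
    rwa [← MonoidHom.mem_ker, Abelianization.ker_of] at this
  -- preimages of subgroups of the abelianisation
  let B : AddSubgroup (Additive (Abelianization R)) → Subgroup G := fun W =>
    ((AddSubgroup.toSubgroup' W).comap Abelianization.of).map R.subtype
  have hB : ∀ W x, x ∈ B W ↔ ∃ hx : x ∈ R, Additive.ofMul (Abelianization.of (⟨x, hx⟩ : R)) ∈ W := by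
    intro W x
    constructor
    · rintro ⟨r, hr, rfl⟩
      exact ⟨r.2, hr⟩
    · rintro ⟨hx, hr⟩
      exact ⟨⟨x, hx⟩, hr, rfl⟩
  have hst : ∀ W : AddSubgroup (Additive (Abelianization R)), (∀ v ∈ W, T v ∈ W) →
      (∀ v ∈ W, T.symm v ∈ W) → ∀ x ∈ B W, ∀ m : ℤ, t ^ m * x * t ^ (-m) ∈ B W := by
    intro W h1 h2
    have h3 : ∀ x ∈ B W, t * x * t⁻¹ ∈ B W := by
      intro x hx
      obtain ⟨hx1, hx2⟩ := (hB _ _).1 hx
      have := h1 _ hx2
      rw [hT] at this
      exact (hB _ _).2 ⟨(c ⟨x, hx1⟩).2, this⟩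
    have h4 : ∀ x ∈ B W, t⁻¹ * x * t ∈ B W := by
      intro x hx
      obtain ⟨hx1, hx2⟩ := (hB _ _).1 hx
      have := h2 _ hx2
      rw [hT'] at this
      have e : ((c.symm ⟨x, hx1⟩ : R) : G) = t⁻¹ * x * t :=
        MulAut.conjNormal_symm_apply t ⟨x, hx1⟩
      rw [← e]
      exact (hB _ _).2 ⟨(c.symm ⟨x, hx1⟩).2, this⟩
    intro x hx m
    induction m using Int.induction_on with
    | zero => simpa using hx
    | succ i ih =>
      have := h3 _ ih
      have h5 : t * (t ^ (i : ℤ) * x * t ^ (-(i : ℤ))) * t⁻¹ =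
          t ^ ((i : ℤ) + 1) * x * t ^ (-((i : ℤ) + 1)) := by
        rw [add_comm, zpow_add, neg_add_rev, zpow_add]
        group
      rwa [h5] at this
    | pred i ih =>
      have := h4 _ ih
      have h5 : t⁻¹ * (t ^ (-(i : ℤ)) * x * t ^ (-(-(i : ℤ)))) * t =
          t ^ (-(i : ℤ) - 1) * x * t ^ (-(-(i : ℤ) - 1)) := by
        group
      rwa [h5] at this
  obtain ⟨S0, hS0⟩ := hG.out
  have hk : ∀ g : G, g * t ^ (-(φ g).toAdd) ∈ R := by
    intro g
    rw [MonoidHom.mem_ker, map_mul, map_zpow, ht, ← ofAdd_zsmul]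
    simp
  let κ : G → Additive (Abelianization R) := fun g =>
    Additive.ofMul (Abelianization.of (⟨g * t ^ (-(φ g).toAdd), hk g⟩ : R))
  have hof : Function.Surjective (fun r : R => Additive.ofMul (Abelianization.of r)) := by
    intro v
    obtain ⟨r, hr⟩ := QuotientGroup.mk_surjective (Additive.toMul v)
    exact ⟨r, congrArg Additive.ofMul hr⟩
  obtain ⟨W, hW, hWT, hWf⟩ := exists_stable T (S0.image κ) (by
    intro W hs h1 h2
    have hst' := hst W h1 h2
    have hL : lift φ t (B W) hst' = ⊤ := by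
      rw [eq_top_iff, ← hS0, Subgroup.closure_le]
      intro g hg
      exact (hB _ _).2 ⟨hk g, hs _ (Finset.mem_image_of_mem κ hg)⟩
    rw [eq_top_iff]
    intro v _
    obtain ⟨r, rfl⟩ := hof v
    have hr : (r : G) ∈ lift φ t (B W) hst' := by rw [hL]; trivial
    have hr2 : (r : G) * t ^ (-(φ r).toAdd) ∈ B W := hr
    have hr3 : φ r = 1 := r.2
    rw [hr3, toAdd_one, neg_zero, zpow_zero, mul_one] at hr2
    exact ((hB _ _).1 hr2).2)
  have hst' := hst W (fun v hv => (hWT v).2 hv) (fun v hv => (hWT _).1 (by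
    rwa [AddEquiv.apply_symm_apply]))
  have hLR : ∀ r : R, (r : G) ∈ lift φ t (B W) hst' →
      Additive.ofMul (Abelianization.of r) ∈ W := by
    intro r hr
    have hr2 : (r : G) * t ^ (-(φ r).toAdd) ∈ B W := hr
    have hr3 : φ r = 1 := r.2
    rw [hr3, toAdd_one, neg_zero, zpow_zero, mul_one] at hr2
    exact ((hB _ _).1 hr2).2
  have hRL : ∀ r : R, Additive.ofMul (Abelianization.of r) ∈ W →
      (r : G) ∈ lift φ t (B W) hst' := by
    intro r hr
    change (r : G) * t ^ (-(φ r).toAdd) ∈ B W
    have hr3 : φ r = 1 := r.2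
    rw [hr3, toAdd_one, neg_zero, zpow_zero, mul_one]
    exact (hB _ _).2 ⟨r.2, hr⟩
  have htL : ∀ m : ℤ, t ^ m ∈ lift φ t (B W) hst' := by
    intro m
    change t ^ m * t ^ (-(φ (t ^ m)).toAdd) ∈ B W
    have : (φ (t ^ m)).toAdd = m := by
      rw [map_zpow, ht, ← ofAdd_zsmul]
      simp
    rw [this, ← zpow_add, add_neg_cancel, zpow_zero]
    exact (B W).one_mem
  have hfin : (lift φ t (B W) hst').FiniteIndex := by
    have hsur : Function.Surjective (fun r : R =>
        (QuotientAddGroup.mk (Additive.ofMul (Abelianization.of r)) :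
          Additive (Abelianization R) ⧸ W)) :=
      QuotientAddGroup.mk_surjective.comp hof
    choose f hf using hsur
    have hs2 : Function.Surjective (fun q => (QuotientGroup.mk ((f q : R) : G) :
        G ⧸ lift φ t (B W) hst')) := by
      intro y
      obtain ⟨x, rfl⟩ := QuotientGroup.mk_surjective y
      let r : R := ⟨x * t ^ (-(φ x).toAdd), hk x⟩
      refine ⟨QuotientAddGroup.mk (Additive.ofMul (Abelianization.of r)), ?_⟩
      have h1 := hf (QuotientAddGroup.mk (Additive.ofMul (Abelianization.of r)))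
      set r' := f (QuotientAddGroup.mk (Additive.ofMul (Abelianization.of r)))
      rw [QuotientAddGroup.eq] at h1
      have h2 : Additive.ofMul (Abelianization.of (r'⁻¹ * r)) ∈ W := by
        rw [map_mul, map_inv, ofMul_mul, ofMul_inv]
        exact h1
      have h3 := hRL _ h2
      change (QuotientGroup.mk ((r' : R) : G) : G ⧸ lift φ t (B W) hst') = _
      rw [QuotientGroup.eq]
      have h4 := (lift φ t (B W) hst').mul_mem h3 (htL (φ x).toAdd)
      have h5 : ((r'⁻¹ * r : R) : G) * t ^ (φ x).toAdd = (r' : G)⁻¹ * x := by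
        simp only [Subgroup.coe_mul, Subgroup.coe_inv, r]
        rw [mul_assoc, mul_assoc, ← zpow_add, neg_add_cancel, zpow_zero, mul_one]
      rwa [h5] at h4
    have : Finite (G ⧸ lift φ t (B W) hst') := Finite.of_surjective _ hs2
    exact Subgroup.finiteIndex_of_finite_quotient
  have hle := h _ hfin
  apply hW
  rw [eq_top_iff]
  intro v _
  obtain ⟨r, rfl⟩ := hof v
  exact hLR r (hle r.2)

end Vale.Agent.P216.R2.H419
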