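import Vale.Agent.P216.R2.H419.Perfect
import Vale.Agent.P216.H215.Large

namespace Vale.Agent.P216.R2.H419

open Vale.Agent.P216 Vale.Agent.P216.H215

variable {G : Type*} [Group G]

theorem comm_eq_of_top {R : Subgroup G} (h : commutator R = ⊤) : ⁅R, R⁆ = R := by
  rw [← Subgroup.map_subtype_commutator, h, ← MonoidHom.range_eq_map, Subgroup.range_subtype]

theorem map_finiteIndex {H : Subgroup G} [hH : H.FiniteIndex] (L : Subgroup H)
    [hL : L.FiniteIndex] : (L.map H.subtype).FiniteIndex := by
  refine ⟨?_⟩
  rw [Subgroup.index_map_subtype]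
  exact mul_ne_zero hL.index_ne_zero hH.index_ne_zero

theorem residual_le {L : Subgroup G} (h : L.FiniteIndex) : finiteResidual G ≤ L :=
  fun _ hx => mem_finiteResidual.1 hx L h

theorem residual_le_map {H : Subgroup G} [H.FiniteIndex] {L : Subgroup H} (h : L.FiniteIndex)
    {x : H} (hx : (x : G) ∈ finiteResidual G) : x ∈ L := by
  obtain ⟨y, hy, hxy⟩ := residual_le (map_finiteIndex L) hx
  have : y = x := Subtype.ext hxy
  rwa [← this]

theorem perfect_of_finiteIndex [Group.FG G] (hR : (finiteResidual G).FiniteIndex) :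
    ⁅finiteResidual G, finiteResidual G⁆ = finiteResidual G := by
  classical
  apply comm_eq_of_top
  by_contra hcon
  let R := finiteResidual G
  have hfg : Group.FG R := Subgroup.fg_of_index_ne_zero R
  have hnt : Nontrivial (Additive (Abelianization R)) := by
    by_contra hs
    rw [not_nontrivial_iff_subsingleton] at hs
    apply hcon
    rw [eq_top_iff]
    intro x _
    have : (Abelianization.of x : Abelianization R) = 1 :=
      (Additive.ofMul.injective (Subsingleton.elim (Additive.ofMul (Abelianization.of x))
        (Additive.ofMul 1)))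
    rwa [← MonoidHom.mem_ker, Abelianization.ker_of] at this
  have hfg2 : Group.FG (Abelianization R) :=
    Group.fg_of_surjective (f := Abelianization.of) (QuotientGroup.mk_surjective)
  have hfg3 : AddGroup.FG (Additive (Abelianization R)) := inferInstance
  obtain ⟨S, hS⟩ := hfg3.out
  obtain ⟨W, hW, -, hf⟩ := exists_stable (AddEquiv.refl _) S (by
    intro W hs _ _
    rw [eq_top_iff, ← hS, AddSubgroup.closure_le]
    exact hs)
  let B : Subgroup R := (AddSubgroup.toSubgroup' W).comap Abelianization.of
  have hB : B.FiniteIndex := by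
    have h1 : Finite (Abelianization R ⧸ (AddSubgroup.toSubgroup' W)) := hf
    have h2 : (AddSubgroup.toSubgroup' W).FiniteIndex := Subgroup.finiteIndex_of_finite_quotient
    refine ⟨?_⟩
    rw [Subgroup.index_comap_of_surjective _ QuotientGroup.mk_surjective]
    exact h2.index_ne_zero
  apply hW
  rw [eq_top_iff]
  intro v _
  obtain ⟨r, hr⟩ := QuotientGroup.mk_surjective (Additive.toMul v)
  have h1 : r ∈ B := residual_le_map (H := R) hB r.2
  have h2 : Additive.ofMul (Abelianization.of r) ∈ W := h1
  have h3 : Additive.ofMul (Abelianization.of r) = v := congrArg Additive.ofMul hr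
  rwa [h3] at h2

/-- the value of a rotation -/
def rotVal : DihedralGroup 0 → ℤ
  | .r i => i
  | .sr i => i

/-- the rotations -/
def rotations : Subgroup (DihedralGroup 0) where
  carrier := {x | ∃ i : ZMod 0, x = .r i}
  one_mem' := ⟨0, rfl⟩
  mul_mem' := by
    rintro _ _ ⟨i, rfl⟩ ⟨j, rfl⟩
    exact ⟨i + j, DihedralGroup.r_mul_r i j⟩
  inv_mem' := by
    rintro _ ⟨i, rfl⟩
    exact ⟨-i, rfl⟩

theorem rotations_index : rotations.index = 2 := by
  rw [Subgroup.index_eq_two_iff]
  refine ⟨.sr 0, ?_⟩
  rintro (i | i)
  · refine Or.inr ⟨⟨i, rfl⟩, ?_⟩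
    rw [DihedralGroup.r_mul_sr]
    rintro ⟨j, hj⟩
    simp at hj
  · refine Or.inl ⟨?_, ?_⟩
    · rw [DihedralGroup.sr_mul_sr]
      exact ⟨_, rfl⟩
    · rintro ⟨j, hj⟩
      simp at hj

theorem exists_phi (h : Nonempty ((G ⧸ finiteResidual G) ≃* Multiplicative ℤ) ∨
    Nonempty ((G ⧸ finiteResidual G) ≃* DihedralGroup 0)) :
    ∃ G1 : Subgroup G, G1.FiniteIndex ∧ ∃ φ : G1 →* Multiplicative ℤ, Function.Surjective φ ∧
      φ.ker = (finiteResidual G).subgroupOf G1 := by
  rcases h with ⟨⟨e⟩⟩ | ⟨⟨e⟩⟩
  · refine ⟨⊤, inferInstance, (e.toMonoidHom.comp (QuotientGroup.mk' _)).comp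
      (⊤ : Subgroup G).subtype, ?_, ?_⟩
    · intro y
      obtain ⟨q, rfl⟩ := e.surjective y
      obtain ⟨g, rfl⟩ := QuotientGroup.mk_surjective q
      exact ⟨⟨g, trivial⟩, rfl⟩
    · ext x
      rw [MonoidHom.mem_ker, Subgroup.mem_subgroupOf]
      change e (QuotientGroup.mk (x : G)) = 1 ↔ _
      rw [map_eq_one_iff e e.injective, QuotientGroup.eq_one_iff]
  · let π : G →* DihedralGroup 0 := e.toMonoidHom.comp (QuotientGroup.mk' _)
    have hπ : Function.Surjective π := e.surjective.comp (QuotientGroup.mk_surjective)
    have hmem : ∀ x : rotations.comap π, ∃ i : ZMod 0, π x = .r i := fun x => x.2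
    refine ⟨rotations.comap π, ⟨?_⟩, MonoidHom.mk' (fun x => Multiplicative.ofAdd (rotVal (π x)))
      ?_, ?_, ?_⟩
    · rw [Subgroup.index_comap_of_surjective _ hπ, rotations_index]
      norm_num
    · intro x y
      obtain ⟨i, hi⟩ := hmem x
      obtain ⟨j, hj⟩ := hmem y
      rw [Subgroup.coe_mul, map_mul, hi, hj, DihedralGroup.r_mul_r]
      rfl
    · intro y
      obtain ⟨g, hg⟩ := hπ (.r (Multiplicative.toAdd y : ℤ))
      refine ⟨⟨g, ⟨_, hg⟩⟩, ?_⟩
      change Multiplicative.ofAdd (rotVal (π g)) = y
      rw [hg]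
      rfl
    · ext x
      obtain ⟨i, hi⟩ := hmem x
      rw [MonoidHom.mem_ker, Subgroup.mem_subgroupOf]
      change Multiplicative.ofAdd (rotVal (π x)) = 1 ↔ _
      rw [hi]
      have h1 : ((x : G) ∈ finiteResidual G) ↔ π x = 1 := by
        change _ ↔ e (QuotientGroup.mk (x : G)) = 1
        rw [map_eq_one_iff e e.injective, QuotientGroup.eq_one_iff]
      rw [h1, hi]
      constructor
      · intro h
        have : i = 0 := Multiplicative.ofAdd.injective h
        rw [this]
        rfl
      · intro h
        have : i = 0 := by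
          rw [DihedralGroup.one_def] at h
          exact DihedralGroup.r.inj h
        rw [this]
        rfl

theorem perfect_of_phi [Group.FG G] {G1 : Subgroup G} [hG1 : G1.FiniteIndex]
    {φ : G1 →* Multiplicative ℤ} (hφ : Function.Surjective φ)
    (hk : φ.ker = (finiteResidual G).subgroupOf G1) :
    ⁅finiteResidual G, finiteResidual G⁆ = finiteResidual G := by
  have hfg : Group.FG G1 := Subgroup.fg_of_index_ne_zero G1
  have h1 := comm_eq_of_top (ker_perfect φ hφ (by
    intro L hL x hx
    rw [hk, Subgroup.mem_subgroupOf] at hx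
    exact residual_le_map hL hx))
  have h2 := congrArg (Subgroup.map G1.subtype) h1
  rw [Subgroup.map_commutator, hk, Subgroup.map_subgroupOf_eq_of_le (residual_le hG1)] at h2
  exact h2

/-- **The finite residual is perfect** if `G ⧸ R` is finite, `ℤ` or infinite dihedral. -/
theorem residual_perfect [Group.FG G] (h : (finiteResidual G).FiniteIndex ∨
    Nonempty ((G ⧸ finiteResidual G) ≃* Multiplicative ℤ) ∨
      Nonempty ((G ⧸ finiteResidual G) ≃* DihedralGroup 0)) :
    ⁅finiteResidual G, finiteResidual G⁆ = finiteResidual G := by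
  rcases h with h | h
  · exact perfect_of_finiteIndex h
  · obtain ⟨G1, hG1, φ, hφ, hk⟩ := exists_phi h
    exact perfect_of_phi hφ hk

/-- an infinite finitely generated abelian group maps onto `ℤ` -/
theorem exists_to_int (A : Type*) [CommGroup A] [Group.FG A] [Infinite A] :
    ∃ f : A →* Multiplicative ℤ, Function.Surjective f := by
  classical
  have hfg : AddGroup.FG (Additive A) := inferInstance
  obtain ⟨n, ι, hι, p, hp, e, ⟨eqv⟩⟩ := AddCommGroup.equiv_free_prod_directSum_zmod (Additive A)
  rcases Nat.eq_zero_or_pos n with h0 | hn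
  · subst h0
    exfalso
    have h1 : ∀ i, NeZero (p i ^ e i) := fun i => ⟨pow_ne_zero _ (hp i).ne_zero⟩
    have h2 : Finite (DirectSum ι fun i => ZMod (p i ^ e i)) :=
      Finite.of_equiv _ (DirectSum.addEquivProd (fun i => ZMod (p i ^ e i))).symm.toEquiv
    have h3 : Finite (Additive A) := Finite.of_equiv _ eqv.symm.toEquiv
    have h4 : Finite A := h3
    exact not_finite A
  · let g : (Fin n →₀ ℤ) × (DirectSum ι fun i => ZMod (p i ^ e i)) →+ ℤ :=
      (Finsupp.applyAddHom (⟨0, hn⟩ : Fin n)).comp (AddMonoidHom.fst _ _)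
    let f : Additive A →+ ℤ := g.comp eqv.toAddMonoidHom
    refine ⟨AddMonoidHom.toMultiplicativeRight f, ?_⟩
    intro y
    obtain ⟨a, ha⟩ := eqv.surjective (Finsupp.single ⟨0, hn⟩ (Multiplicative.toAdd y), 0)
    refine ⟨Additive.toMul a, ?_⟩
    change Multiplicative.ofAdd (g (eqv a)) = y
    rw [ha]
    simp [g]

/-- a group which maps onto `ℤ` has finite cyclic quotients of unbounded order -/
theorem unbounded_of_to_int {H : Type*} [Group H] (f : H →* Multiplicative ℤ)
    (hf : Function.Surjective f) (n : ℕ) :
    ∃ (N : Subgroup H) (_ : N.Normal), N.FiniteIndex ∧ n ≤ N.index ∧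
      Group.IsSolvable (H ⧸ N) := by
  let m : ℕ := n + 1
  let f' : H →* Multiplicative (ZMod m) :=
    (AddMonoidHom.toMultiplicative (Int.castAddHom (ZMod m))).comp f
  have hf' : Function.Surjective f' := by
    intro y
    obtain ⟨k, hk⟩ := ZMod.intCast_surjective (Multiplicative.toAdd y)
    obtain ⟨h, hh⟩ := hf (Multiplicative.ofAdd k)
    refine ⟨h, ?_⟩
    change Multiplicative.ofAdd ((Multiplicative.toAdd (f h) : ℤ) : ZMod m) = y
    rw [hh]
    exact congrArg Multiplicative.ofAdd hk
  have hcard : f'.ker.index = m := by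
    rw [Subgroup.index_ker, MonoidHom.range_eq_top.2 hf']
    rw [Nat.card_congr (Subgroup.topEquiv (G := Multiplicative (ZMod m))).toEquiv]
    exact Nat.card_zmod m
  refine ⟨f'.ker, inferInstance, ⟨?_⟩, ?_, ?_⟩
  · rw [hcard]
    exact Nat.succ_ne_zero n
  · rw [hcard]
    exact Nat.le_succ n
  · have e := QuotientGroup.quotientKerEquivOfSurjective f' hf'
    exact Group.isSolvable_of_isSolvable_injective (f := e.toMonoidHom) e.injective

/-- An infinite finitely generated group which has a subgroup of finite index without nontrivial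
perfect subgroups has a subgroup of finite index with finite solvable quotients of unbounded
order. -/
theorem unbounded_of_noPerfect [Group.FG G] [Infinite G] (H : Subgroup G) [hH : H.FiniteIndex]
    (hp : ∀ P : Subgroup H, ⁅P, P⁆ = P → P = ⊥) :
    ∃ H' : Subgroup G, H'.FiniteIndex ∧ ∀ n : ℕ, ∃ (N : Subgroup H') (_ : N.Normal),
      N.FiniteIndex ∧ n ≤ N.index ∧ Group.IsSolvable (H' ⧸ N) := by
  classical
  by_cases hall : ∀ k, (derivedSeries H k).FiniteIndex
  · refine ⟨H, hH, fun n => ?_⟩
    by_cases hb : ∃ k, n ≤ (derivedSeries H k).index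
    · obtain ⟨k, hk⟩ := hb
      refine ⟨derivedSeries H k, derivedSeries_normal H k, hall k, hk, ⟨⟨k, ?_⟩⟩⟩
      rw [← map_derivedSeries_eq (f := QuotientGroup.mk' (derivedSeries H k))
        (QuotientGroup.mk'_surjective _) k, Subgroup.map_eq_bot_iff, QuotientGroup.ker_mk']
    · exfalso
      push Not at hb
      have hex : ∃ k, (derivedSeries H (k + 1)).index = (derivedSeries H k).index := by
        by_contra hne
        push Not at hne
        have hlt : ∀ k, k ≤ (derivedSeries H k).index := by
          intro k
          induction k with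
          | zero => exact Nat.zero_le _
          | succ k ih =>
            have h1 : (derivedSeries H k).index ∣ (derivedSeries H (k + 1)).index :=
              Subgroup.index_dvd_of_le (derivedSeries_antitone H (Nat.le_succ k))
            have h2 := Nat.le_of_dvd (Nat.pos_of_ne_zero (hall (k + 1)).index_ne_zero) h1
            have h3 := hne k
            omega
        exact absurd (hlt n) (not_le.2 (hb n))
      obtain ⟨k, hk⟩ := hex
      have hle : derivedSeries H (k + 1) ≤ derivedSeries H k :=
        derivedSeries_antitone H (Nat.le_succ k)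
      have h1 := Subgroup.relIndex_mul_index hle
      rw [hk] at h1
      have h2 : (derivedSeries H (k + 1)).relIndex (derivedSeries H k) = 1 := by
        have := (hall k).index_ne_zero
        exact Nat.eq_of_mul_eq_mul_right (Nat.pos_of_ne_zero this) (by rw [h1, one_mul])
      have h3 := Subgroup.relIndex_eq_one.1 h2
      have h4 : ⁅derivedSeries H k, derivedSeries H k⁆ = derivedSeries H k :=
        le_antisymm hle h3
      have h5 := hp _ h4
      have h6 := hall k
      rw [h5] at h6
      have h7 : (⊥ : Subgroup H).index = Nat.card H := Subgroup.index_bot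
      have h8 : Finite H := by
        apply Nat.finite_of_card_ne_zero
        rw [← h7]
        exact h6.index_ne_zero
      have h9 : Finite G := by
        have : Finite (G ⧸ H) := inferInstance
        exact Finite.of_equiv _ (Subgroup.groupEquivQuotientProdSubgroup (s := H)).symm
      exact not_finite G
  · push Not at hall
    have hk := Nat.find_spec hall
    have hmin := fun m => Nat.find_min hall (m := m)
    set k := Nat.find hall
    rcases Nat.eq_zero_or_pos k with h0 | hpos
    · exfalso
      rw [h0, derivedSeries_zero] at hk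
      exact hk inferInstance
    · obtain ⟨j, hj⟩ : ∃ j, k = j + 1 := ⟨k - 1, by omega⟩
      have hPf : (derivedSeries H j).FiniteIndex := by
        by_contra hcon
        exact hmin j (by omega) hcon
      rw [hj, derivedSeries_succ] at hk
      set P := derivedSeries H j
      have hfgH : Group.FG H := Subgroup.fg_of_index_ne_zero H
      have hfgP : Group.FG P := Subgroup.fg_of_index_ne_zero P
      have hfgA : Group.FG (Abelianization P) :=
        Group.fg_of_surjective (f := Abelianization.of) (QuotientGroup.mk_surjective)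
      have hinf : Infinite (Abelianization P) := by
        rw [← not_finite_iff_infinite]
        intro hfin
        have h1 : (commutator P).FiniteIndex := by
          have : Finite (P ⧸ commutator P) := hfin
          exact Subgroup.finiteIndex_of_finite_quotient
        have h2 := map_finiteIndex (commutator P)
        rw [Subgroup.map_subtype_commutator] at h2
        exact hk h2
      obtain ⟨g, hg⟩ := exists_to_int (Abelianization P)
      let eqv : P ≃* P.map H.subtype := P.equivMapOfInjective H.subtype H.subtype_injective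
      refine ⟨P.map H.subtype, map_finiteIndex P, fun n => unbounded_of_to_int
        ((g.comp Abelianization.of).comp eqv.symm.toMonoidHom) ?_ n⟩
      exact (hg.comp (QuotientGroup.mk_surjective)).comp eqv.symm.surjective

theorem residual_bot {H : Subgroup G} [hH : H.FiniteIndex]
    (hp : ∀ P : Subgroup H, ⁅P, P⁆ = P → P = ⊥)
    (hR : ⁅finiteResidual G, finiteResidual G⁆ = finiteResidual G) : finiteResidual G = ⊥ := by
  have h1 : ((finiteResidual G).subgroupOf H).map H.subtype = finiteResidual G :=
    Subgroup.map_subgroupOf_eq_of_le (residual_le hH)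
  have h2 : (finiteResidual G).subgroupOf H = ⊥ := by
    apply hp
    apply Subgroup.map_injective H.subtype_injective
    rw [Subgroup.map_commutator, h1, hR]
  rw [← h1, h2, Subgroup.map_bot]

/-- (A) -/
theorem largeGroup_of_noPerfect (G : Type) [Group G] [Group.FG G] [Infinite G]
    (hZ : IsEmpty (G ≃* Multiplicative ℤ)) (hD : IsEmpty (G ≃* DihedralGroup 0))
    (H : Subgroup G) [hH : H.FiniteIndex] (hp : ∀ P : Subgroup H, ⁅P, P⁆ = P → P = ⊥) :
    LargeGroup G := by
  refine Or.inr ⟨fun h => ?_, ⟨fun e => ?_⟩, ⟨fun e => ?_⟩, Or.inr (unbounded_of_noPerfect H hp)⟩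
  · have h1 := residual_bot hp (residual_perfect (Or.inl h))
    rw [h1] at h
    have h2 : (⊥ : Subgroup G).index = Nat.card G := Subgroup.index_bot
    have h3 : Finite G := by
      apply Nat.finite_of_card_ne_zero
      rw [← h2]
      exact h.index_ne_zero
    exact not_finite G
  · have h1 := residual_bot hp (residual_perfect (Or.inr (Or.inl ⟨e⟩)))
    exact hZ.false ((QuotientGroup.quotientBot.symm.trans
      (QuotientGroup.quotientMulEquivOfEq h1.symm)).trans e)
  · have h1 := residual_bot hp (residual_perfect (Or.inr (Or.inr ⟨e⟩)))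
    exact hD.false ((QuotientGroup.quotientBot.symm.trans
      (QuotientGroup.quotientMulEquivOfEq h1.symm)).trans e)

/-- (B) -/
theorem largeGroup_of_not_perfect (G : Type) [Group G] [Group.FG G]
    (hR : ⁅finiteResidual G, finiteResidual G⁆ ≠ finiteResidual G)
    (h : AlmostSimpleSolvable G ∨ ∃ H : Subgroup G, H.FiniteIndex ∧ ∀ n : ℕ,
      ∃ (N : Subgroup H) (_ : N.Normal), N.FiniteIndex ∧ n ≤ N.index ∧
        Group.IsSolvable (H ⧸ N)) : LargeGroup G :=
  Or.inr ⟨fun h => hR (residual_perfect (Or.inl h)),
    ⟨fun e => hR (residual_perfect (Or.inr (Or.inl ⟨e⟩)))⟩,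
    ⟨fun e => hR (residual_perfect (Or.inr (Or.inr ⟨e⟩)))⟩, h⟩

end Vale.Agent.P216.R2.H419
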